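import Vale.Agent.Lib.P074q.Brenier.JLemmas

open MeasureTheory ENNReal
open scoped NNReal RealInnerProductSpace BoundedContinuousFunction

namespace Vale.Agent.Lib.P074q

variable {d : ℕ}

/-- Existence of a dual minimiser (Arzelà–Ascoli on the `M`-Lipschitz functions on `Y` vanishing
at a base point; `BoundedContinuousFunction.arzela_ascoli₂`). -/
theorem exists_minimizer {K Y : Set (E d)} (hK : IsCompact K) (hKne : K.Nonempty)
    (hY : IsCompact Y) (hYne : Y.Nonempty) {M R : ℝ≥0}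
    (hKM : ∀ z ∈ K, ‖z‖ ≤ M) (hYR : ∀ y ∈ Y, ‖y‖ ≤ R)
    (ρ μ : Measure (E d)) [IsProbabilityMeasure ρ] [IsProbabilityMeasure μ]
    (hρK : ∀ᵐ x ∂ρ, x ∈ K) (hμY : ∀ᵐ y ∂μ, y ∈ Y) :
    ∃ b₀ : E d → ℝ, LipschitzWith M b₀ ∧ ∀ b : E d → ℝ, Continuous b → J ρ μ Y b₀ ≤ J ρ μ Y b := by
  classical
  obtain ⟨y₀, hy₀⟩ := hYne
  have : CompactSpace ↥Y := isCompact_iff_compactSpace.1 hY
  -- the compact class
  set A : Set (↥Y →ᵇ ℝ) := {f | LipschitzWith M (f : ↥Y → ℝ) ∧ f ⟨y₀, hy₀⟩ = 0} with hA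
  have hclosed : IsClosed A := by
    have h1 : IsClosed {f : ↥Y →ᵇ ℝ | LipschitzWith M (f : ↥Y → ℝ)} :=
      (isClosed_setOfPred_lipschitzWith (α := ↥Y) (β := ℝ) M).preimage
        BoundedContinuousFunction.continuous_coe
    have h2 : IsClosed {f : ↥Y →ᵇ ℝ | f ⟨y₀, hy₀⟩ = 0} :=
      isClosed_eq ((continuous_apply (⟨y₀, hy₀⟩ : ↥Y)).comp
        BoundedContinuousFunction.continuous_coe) continuous_const
    exact h1.inter h2
  have hrange : ∀ (f : ↥Y →ᵇ ℝ) (x : ↥Y), f ∈ A →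
      f x ∈ Metric.closedBall (0 : ℝ) (M * (2 * R)) := by
    intro f x hf
    have h1 : dist (f x) (f ⟨y₀, hy₀⟩) ≤ M * dist x ⟨y₀, hy₀⟩ := hf.1.dist_le_mul _ _
    have h2 : dist x (⟨y₀, hy₀⟩ : ↥Y) ≤ 2 * R := by
      rw [Subtype.dist_eq, dist_eq_norm]
      calc ‖(x : E d) - y₀‖ ≤ ‖(x : E d)‖ + ‖y₀‖ := norm_sub_le _ _
        _ ≤ R + R := add_le_add (hYR _ x.2) (hYR _ hy₀)
        _ = 2 * R := by ring
    rw [hf.2] at h1
    rw [Metric.mem_closedBall]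
    exact h1.trans (mul_le_mul_of_nonneg_left h2 M.2)
  have hequi : Equicontinuous ((↑) : A → ↥Y → ℝ) :=
    (LipschitzWith.uniformEquicontinuous (fun f : A => ((f : ↥Y →ᵇ ℝ) : ↥Y → ℝ)) M
      (fun f => f.2.1)).equicontinuous
  have hcompact : IsCompact A :=
    BoundedContinuousFunction.arzela_ascoli₂ _ (isCompact_closedBall _ _) A hclosed hrange hequi
  -- Lipschitz extension
  have key : ∀ f : ↥Y →ᵇ ℝ, f ∈ A →
      ∃ g : E d → ℝ, LipschitzWith M g ∧ ∀ y : ↥Y, g y = f y := by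
    intro f hf
    set f' : E d → ℝ := fun x => if h : x ∈ Y then f ⟨x, h⟩ else 0 with hf'
    have hl : LipschitzOnWith M f' Y := by
      intro x hx y hy
      have := hf.1 ⟨x, hx⟩ ⟨y, hy⟩
      simpa [hf', hx, hy, Subtype.edist_eq] using this
    obtain ⟨g, hg, hgeq⟩ := hl.extend_real
    refine ⟨g, hg, fun y => ?_⟩
    have := hgeq y.2
    simp only [hf', y.2, dif_pos] at this
    exact this.symm
  choose! ext hext using key
  set Φ : (↥Y →ᵇ ℝ) → ℝ := fun f => J ρ μ Y (ext f) with hΦ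
  have hΦlip : LipschitzOnWith 2 Φ A := by
    refine LipschitzOnWith.of_dist_le_mul fun f hf g hg => ?_
    rw [Real.dist_eq]
    have := abs_J_sub_J_le hY ⟨y₀, hy₀⟩ hK ρ μ hρK hμY (hext f hf).1.continuous
      (hext g hg).1.continuous (ε := dist f g) (fun y hy => by
        rw [(hext f hf).2 ⟨y, hy⟩, (hext g hg).2 ⟨y, hy⟩, ← Real.dist_eq]
        exact BoundedContinuousFunction.dist_coe_le_dist _)
    simpa using this
  have hAne : A.Nonempty := ⟨0, by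
    refine ⟨?_, rfl⟩
    exact (LipschitzWith.const' (0 : ℝ) : LipschitzWith M (fun _ : ↥Y => (0 : ℝ)))⟩
  obtain ⟨f₀, hf₀, hmin⟩ := hcompact.exists_isMinOn hAne hΦlip.continuousOn
  refine ⟨ext f₀, (hext f₀ hf₀).1, fun b hb => ?_⟩
  obtain ⟨hl, hJ⟩ := J_double_conj_le hK hKne hY ⟨y₀, hy₀⟩ hKM hYR ρ μ hρK hμY hb
  set b' : E d → ℝ := conj K (conj Y b) with hb'
  set b'' : E d → ℝ := fun y => b' y + (-b' y₀) with hb''
  have hl'' : LipschitzWith M b'' := by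
    have := hl.add (LipschitzWith.const (-b' y₀))
    simpa using this
  have hJ'' : J ρ μ Y b'' = J ρ μ Y b' :=
    J_add_const hY ⟨y₀, hy₀⟩ hK ρ μ hρK hμY hl.continuous _
  set f : ↥Y →ᵇ ℝ := BoundedContinuousFunction.mkOfCompact
    ⟨fun y : ↥Y => b'' y, hl''.continuous.comp continuous_subtype_val⟩ with hf
  have hfA : f ∈ A := by
    refine ⟨?_, ?_⟩
    · intro x y
      exact hl'' x y
    · simp [hf, hb'']
  have h1 : Φ f₀ ≤ Φ f := hmin hfA
  have h2 : |J ρ μ Y (ext f) - J ρ μ Y b''| ≤ 2 * 0 :=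
    abs_J_sub_J_le hY ⟨y₀, hy₀⟩ hK ρ μ hρK hμY (hext f hfA).1.continuous hl''.continuous
      (fun y hy => by
        rw [(hext f hfA).2 ⟨y, hy⟩]
        simp [hf])
  have h3 : J ρ μ Y (ext f) = J ρ μ Y b'' := by
    have : |J ρ μ Y (ext f) - J ρ μ Y b''| ≤ 0 := by simpa using h2
    have := abs_nonpos_iff.1 this
    linarith
  calc J ρ μ Y (ext f₀) ≤ J ρ μ Y (ext f) := h1
    _ = J ρ μ Y b'' := h3
    _ = J ρ μ Y b' := hJ''
    _ ≤ J ρ μ Y b := hJ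

end Vale.Agent.Lib.P074q
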