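import Vale.Agent.Lib.P074q.Conj

open MeasureTheory ENNReal
open scoped NNReal RealInnerProductSpace

namespace Vale.Agent.Lib.P074q

variable {d : ℕ}

/-- For continuous `b` and compact `Y`, for Lebesgue-a.e. `x` the maximiser of `⟪x,y⟫ - b y` over
`Y` is unique, and it is given by a Borel map `T₀` (the gradient of the Lipschitz function
`conj Y b`; Rademacher `LipschitzWith.ae_differentiableAt`, `measurable_fderiv`). -/
theorem exists_unique_maximizer {Y : Set (E d)} (hY : IsCompact Y) (hYne : Y.Nonempty)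
    {b : E d → ℝ} (hb : Continuous b) :
    ∃ T₀ : E d → E d, Measurable T₀ ∧ ∀ᵐ x ∂(volume : Measure (E d)),
      T₀ x ∈ Y ∧ conj Y b x + b (T₀ x) = ⟪x, T₀ x⟫ ∧
        ∀ y ∈ Y, conj Y b x + b y = ⟪x, y⟫ → y = T₀ x := by
  classical
  obtain ⟨R, hR⟩ : ∃ R : ℝ≥0, ∀ z ∈ Y, ‖z‖ ≤ R := by
    obtain ⟨C, hC⟩ := hY.isBounded.exists_norm_le
    exact ⟨C.toNNReal, fun z hz => (hC z hz).trans (Real.le_coe_toNNReal C)⟩
  have hbb : ∃ c, ∀ z ∈ Y, c ≤ b z := by
    obtain ⟨C, hC⟩ := hY.exists_bound_of_continuousOn hb.continuousOn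
    exact ⟨-C, fun z hz => (abs_le.mp (hC z hz)).1⟩
  set a : E d → ℝ := conj Y b with ha
  have hLip : LipschitzWith R a := conj_lipschitz hYne hR hbb
  have hdiff : ∀ᵐ x ∂(volume : Measure (E d)), DifferentiableAt ℝ a x := hLip.ae_differentiableAt
  refine ⟨fun x => (InnerProductSpace.toDual ℝ (E d)).symm (fderiv ℝ a x), ?_, ?_⟩
  · exact (InnerProductSpace.toDual ℝ (E d)).symm.continuous.measurable.comp (measurable_fderiv ℝ a)
  · filter_upwards [hdiff] with x hx
    have key : ∀ y ∈ Y, a x + b y = ⟪x, y⟫ →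
        y = (InnerProductSpace.toDual ℝ (E d)).symm (fderiv ℝ a x) := by
      intro y hy hxy
      have hda : HasFDerivAt a (fderiv ℝ a x) x := hx.hasFDerivAt
      have hin : HasFDerivAt (fun z : E d => ⟪z, y⟫)
          ((InnerProductSpace.toDual ℝ (E d) y : E d →L[ℝ] ℝ)) x := by
        have e : (fun z : E d => ⟪z, y⟫) = ⇑(InnerProductSpace.toDual ℝ (E d) y) := by
          funext z
          rw [InnerProductSpace.toDual_apply_apply, real_inner_comm]
        rw [e]
        exact ContinuousLinearMap.hasFDerivAt _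
      have hmin : IsLocalMin (fun z : E d => a z - ⟪z, y⟫) x := by
        refine Filter.Eventually.of_forall fun z => ?_
        have h1 : ⟪z, y⟫ - b y ≤ a z := le_conj hR hbb z hy
        show a x - ⟪x, y⟫ ≤ a z - ⟪z, y⟫
        linarith
      have h0 := hmin.hasFDerivAt_eq_zero (hda.sub hin)
      have h1 : fderiv ℝ a x = InnerProductSpace.toDual ℝ (E d) y := sub_eq_zero.mp h0
      rw [h1, LinearIsometryEquiv.symm_apply_apply]
    obtain ⟨y, hy, hyeq⟩ := exists_conj_eq hY hYne hb.continuousOn x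
    have hy2 : a x + b y = ⟪x, y⟫ := by rw [ha, hyeq]; ring
    have hyT := key y hy hy2
    refine ⟨hyT ▸ hy, ?_, key⟩
    rw [← hyT]; exact hy2

end Vale.Agent.Lib.P074q
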