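import Vale.Agent.Lib.P074q.Conj

open MeasureTheory ENNReal
open scoped NNReal RealInnerProductSpace

namespace Vale.Agent.Lib.P074q

variable {d : ℕ}

/-- A continuous function is integrable for a finite measure concentrated on a compact set. -/
lemma integrable_of_continuous_of_ae_memJ {K : Set (E d)} (hK : IsCompact K)
    (ν : Measure (E d)) [IsFiniteMeasure ν] (hν : ∀ᵐ x ∂ν, x ∈ K) {f : E d → ℝ}
    (hf : Continuous f) : Integrable f ν := by
  obtain ⟨C, hC⟩ := hK.exists_bound_of_continuousOn hf.continuousOn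
  refine Integrable.of_bound hf.aestronglyMeasurable C ?_
  filter_upwards [hν] with x hx using hC x hx

/-- A compact set is bounded by a nonnegative real. -/
lemma exists_nnreal_boundJ {Y : Set (E d)} (hY : IsCompact Y) :
    ∃ R : ℝ≥0, ∀ y ∈ Y, ‖y‖ ≤ R := by
  obtain ⟨R, hR⟩ := hY.isBounded.exists_norm_le
  exact ⟨R.toNNReal, fun y hy => (hR y hy).trans (Real.le_coe_toNNReal R)⟩

/-- A continuous function is bounded below on a compact set. -/
lemma exists_lower_boundJ {Y : Set (E d)} (hY : IsCompact Y) {b : E d → ℝ} (hb : Continuous b) :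
    ∃ c, ∀ z ∈ Y, c ≤ b z := by
  obtain ⟨C, hC⟩ := hY.exists_bound_of_continuousOn hb.continuousOn
  refine ⟨-C, fun z hz => ?_⟩
  have := hC z hz
  rw [Real.norm_eq_abs] at this
  exact (abs_le.1 this).1

/-- Double conjugation improves the dual functional: with `b' = conj K (conj Y b)` one has
`b' ≤ b` on `Y`, `conj Y b' = conj Y b` on `K`, `b'` is `M`-Lipschitz, hence `J b' ≤ J b`. -/
theorem J_double_conj_le {K Y : Set (E d)} (hK : IsCompact K) (hKne : K.Nonempty)
    (hY : IsCompact Y) (hYne : Y.Nonempty) {M R : ℝ≥0}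
    (hKM : ∀ z ∈ K, ‖z‖ ≤ M) (hYR : ∀ y ∈ Y, ‖y‖ ≤ R)
    (ρ μ : Measure (E d)) [IsProbabilityMeasure ρ] [IsProbabilityMeasure μ]
    (hρK : ∀ᵐ x ∂ρ, x ∈ K) (hμY : ∀ᵐ y ∂μ, y ∈ Y) {b : E d → ℝ} (hb : Continuous b) :
    LipschitzWith M (conj K (conj Y b)) ∧ J ρ μ Y (conj K (conj Y b)) ≤ J ρ μ Y b := by
  have hbl : ∃ c, ∀ z ∈ Y, c ≤ b z := exists_lower_boundJ hY hb
  have ha : LipschitzWith R (conj Y b) := conj_lipschitz hYne hYR hbl
  have hal : ∃ c, ∀ z ∈ K, c ≤ conj Y b z := exists_lower_boundJ hK ha.continuous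
  have hb' : LipschitzWith M (conj K (conj Y b)) := conj_lipschitz hKne hKM hal
  have hb'l : ∃ c, ∀ z ∈ Y, c ≤ conj K (conj Y b) z := exists_lower_boundJ hY hb'.continuous
  have ha' : LipschitzWith R (conj Y (conj K (conj Y b))) := conj_lipschitz hYne hYR hb'l
  refine ⟨hb', ?_⟩
  have h1 : ∀ y ∈ Y, conj K (conj Y b) y ≤ b y := by
    intro y hy
    refine conj_le hKne ?_
    intro x _
    have := le_conj hYR hbl x hy
    rw [real_inner_comm] at this
    linarith
  have h2 : ∀ x ∈ K, conj Y (conj K (conj Y b)) x ≤ conj Y b x := by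
    intro x hx
    refine conj_le hYne ?_
    intro y _
    have := le_conj hKM hal y hx
    rw [real_inner_comm] at this
    linarith
  unfold J
  refine add_le_add ?_ ?_
  · refine integral_mono_ae (integrable_of_continuous_of_ae_memJ hK ρ hρK ha'.continuous)
      (integrable_of_continuous_of_ae_memJ hK ρ hρK ha.continuous) ?_
    filter_upwards [hρK] with x hx using h2 x hx
  · refine integral_mono_ae (integrable_of_continuous_of_ae_memJ hY μ hμY hb'.continuous)
      (integrable_of_continuous_of_ae_memJ hY μ hμY hb) ?_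
    filter_upwards [hμY] with y hy using h1 y hy

/-- `J` is invariant under adding constants. -/
theorem J_add_const {Y : Set (E d)} (hY : IsCompact Y) (hYne : Y.Nonempty) {K : Set (E d)}
    (hK : IsCompact K)
    (ρ μ : Measure (E d)) [IsProbabilityMeasure ρ] [IsProbabilityMeasure μ]
    (hρK : ∀ᵐ x ∂ρ, x ∈ K) (hμY : ∀ᵐ y ∂μ, y ∈ Y) {b : E d → ℝ} (hb : Continuous b) (c : ℝ) :
    J ρ μ Y (fun y => b y + c) = J ρ μ Y b := by
  obtain ⟨R, hYR⟩ := exists_nnreal_boundJ hY
  have hbl : ∃ c, ∀ z ∈ Y, c ≤ b z := exists_lower_boundJ hY hb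
  have ha : LipschitzWith R (conj Y b) := conj_lipschitz hYne hYR hbl
  have hia : Integrable (conj Y b) ρ := integrable_of_continuous_of_ae_memJ hK ρ hρK ha.continuous
  have hib : Integrable b μ := integrable_of_continuous_of_ae_memJ hY μ hμY hb
  unfold J
  have e1 : (fun x => conj Y (fun y => b y + c) x) = fun x => conj Y b x - c := by
    funext x
    exact conj_add_const hYne hYR hbl c x
  have e2 : ∫ x, conj Y (fun y => b y + c) x ∂ρ = ∫ x, conj Y b x ∂ρ - c := by
    rw [e1, integral_sub hia (integrable_const c)]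
    simp
  have e3 : ∫ y, (b y + c) ∂μ = ∫ y, b y ∂μ + c := by
    rw [integral_add hib (integrable_const c)]
    simp
  rw [e2, e3]
  ring

/-- `J` is 2-Lipschitz for the sup norm on `Y`. -/
theorem abs_J_sub_J_le {Y : Set (E d)} (hY : IsCompact Y) (hYne : Y.Nonempty) {K : Set (E d)}
    (hK : IsCompact K)
    (ρ μ : Measure (E d)) [IsProbabilityMeasure ρ] [IsProbabilityMeasure μ]
    (hρK : ∀ᵐ x ∂ρ, x ∈ K) (hμY : ∀ᵐ y ∂μ, y ∈ Y) {b b' : E d → ℝ} (hb : Continuous b)
    (hb' : Continuous b') {ε : ℝ} (h : ∀ y ∈ Y, |b y - b' y| ≤ ε) :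
    |J ρ μ Y b - J ρ μ Y b'| ≤ 2 * ε := by
  obtain ⟨R, hYR⟩ := exists_nnreal_boundJ hY
  have hbl : ∃ c, ∀ z ∈ Y, c ≤ b z := exists_lower_boundJ hY hb
  have hbl' : ∃ c, ∀ z ∈ Y, c ≤ b' z := exists_lower_boundJ hY hb'
  have ha : LipschitzWith R (conj Y b) := conj_lipschitz hYne hYR hbl
  have ha' : LipschitzWith R (conj Y b') := conj_lipschitz hYne hYR hbl'
  have hia : Integrable (conj Y b) ρ := integrable_of_continuous_of_ae_memJ hK ρ hρK ha.continuous
  have hia' : Integrable (conj Y b') ρ :=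
    integrable_of_continuous_of_ae_memJ hK ρ hρK ha'.continuous
  have hib : Integrable b μ := integrable_of_continuous_of_ae_memJ hY μ hμY hb
  have hib' : Integrable b' μ := integrable_of_continuous_of_ae_memJ hY μ hμY hb'
  have k1 : |∫ x, conj Y b x ∂ρ - ∫ x, conj Y b' x ∂ρ| ≤ ε := by
    rw [← integral_sub hia hia']
    have := norm_integral_le_of_norm_le_const (μ := ρ) (f := fun x => conj Y b x - conj Y b' x)
      (C := ε) (Filter.Eventually.of_forall
        (fun x => by
          rw [Real.norm_eq_abs]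
          exact abs_conj_sub_conj_le hYne hYR hbl h x))
    simpa using this
  have k2 : |∫ y, b y ∂μ - ∫ y, b' y ∂μ| ≤ ε := by
    rw [← integral_sub hib hib']
    have := norm_integral_le_of_norm_le_const (μ := μ) (f := fun y => b y - b' y)
      (C := ε) (by
        filter_upwards [hμY] with y hy
        rw [Real.norm_eq_abs]
        exact h y hy)
    simpa using this
  unfold J
  have e : (∫ x, conj Y b x ∂ρ + ∫ y, b y ∂μ) - (∫ x, conj Y b' x ∂ρ + ∫ y, b' y ∂μ)
      = (∫ x, conj Y b x ∂ρ - ∫ x, conj Y b' x ∂ρ) + (∫ y, b y ∂μ - ∫ y, b' y ∂μ) := by ring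
  rw [e]
  calc _ ≤ |∫ x, conj Y b x ∂ρ - ∫ x, conj Y b' x ∂ρ| + |∫ y, b y ∂μ - ∫ y, b' y ∂μ| :=
        abs_add_le _ _
    _ ≤ 2 * ε := by linarith

end Vale.Agent.Lib.P074q
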