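import Vale.Agent.Lib.P074q.Brenier.Perturb

open MeasureTheory ENNReal
open scoped NNReal RealInnerProductSpace

namespace Vale.Agent.Lib.P074q

variable {d : ℕ}

lemma exists_nnnorm_bound {Y : Set (E d)} (hY : IsCompact Y) :
    ∃ M : ℝ≥0, ∀ z ∈ Y, ‖z‖ ≤ M := by
  obtain ⟨C, hC⟩ := hY.isBounded.exists_norm_le
  exact ⟨C.toNNReal, fun z hz => (hC z hz).trans (Real.le_coe_toNNReal C)⟩

lemma exists_lower_bound {Y : Set (E d)} (hY : IsCompact Y) {f : E d → ℝ} (hf : Continuous f) :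
    ∃ c, ∀ z ∈ Y, c ≤ f z := by
  obtain ⟨c, hc⟩ := hY.bddBelow_image hf.continuousOn
  exact ⟨c, fun z hz => hc (Set.mem_image_of_mem f hz)⟩

lemma conj_continuous {Y : Set (E d)} (hY : IsCompact Y) (hYne : Y.Nonempty) {f : E d → ℝ}
    (hf : Continuous f) : Continuous (conj Y f) := by
  obtain ⟨M, hM⟩ := exists_nnnorm_bound hY
  exact (conj_lipschitz hYne hM (exists_lower_bound hY hf)).continuous

lemma integrable_of_continuous_of_ae_mem {S : Set (E d)} (hS : IsCompact S)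
    (ν : Measure (E d)) [IsProbabilityMeasure ν] (hν : ∀ᵐ x ∂ν, x ∈ S) {f : E d → ℝ}
    (hf : Continuous f) : Integrable f ν := by
  obtain ⟨C, hC⟩ := hS.exists_bound_of_continuousOn hf.continuousOn
  exact Integrable.of_bound hf.aestronglyMeasurable C (hν.mono (fun x hx => hC x hx))

/-- one half of the first variation. -/
lemma integral_comp_le_of_minimizer {K Y : Set (E d)} (hK : IsCompact K) (hY : IsCompact Y)
    (hYne : Y.Nonempty)
    (ρ μ : Measure (E d)) [IsProbabilityMeasure ρ] [IsProbabilityMeasure μ]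
    (hρK : ∀ᵐ x ∂ρ, x ∈ K) (hμY : ∀ᵐ y ∂μ, y ∈ Y)
    {b₀ : E d → ℝ} (hb₀ : Continuous b₀)
    (hmin : ∀ b : E d → ℝ, Continuous b → J ρ μ Y b₀ ≤ J ρ μ Y b)
    {T₀ : E d → E d}
    (huniq : ∀ᵐ x ∂ρ, T₀ x ∈ Y ∧ conj Y b₀ x + b₀ (T₀ x) = ⟪x, T₀ x⟫ ∧
        ∀ y ∈ Y, conj Y b₀ x + b₀ y = ⟪x, y⟫ → y = T₀ x)
    {h : E d → ℝ} (hh : Continuous h) {C : ℝ} (hC : ∀ y, |h y| ≤ C) :
    ∫ x, h (T₀ x) ∂ρ ≤ ∫ y, h y ∂μ := by
  obtain ⟨M, hM⟩ := exists_nnnorm_bound hY
  set s : ℕ → ℝ := fun n => 1 / ((n : ℝ) + 1) with hs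
  have hspos : ∀ n, 0 < s n := fun n => by
    simp only [hs]
    positivity
  set bn : ℕ → E d → ℝ := fun n y => b₀ y + s n * h y with hbn
  have hbnc : ∀ n, Continuous (bn n) := fun n => hb₀.add (continuous_const.mul hh)
  set F : ℕ → E d → ℝ := fun n x => (conj Y (bn n) x - conj Y b₀ x) / s n with hF
  have hFc : ∀ n, Continuous (F n) := fun n =>
    ((conj_continuous hY hYne (hbnc n)).sub (conj_continuous hY hYne hb₀)).div_const _
  have hFbound : ∀ n x, ‖F n x‖ ≤ C := by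
    intro n x
    have h1 : |conj Y (bn n) x - conj Y b₀ x| ≤ s n * C := by
      apply abs_conj_sub_conj_le hYne hM (exists_lower_bound hY (hbnc n))
      intro z _
      simp only [hbn]
      rw [add_sub_cancel_left, abs_mul, abs_of_pos (hspos n)]
      exact mul_le_mul_of_nonneg_left (hC z) (hspos n).le
    simp only [hF]
    rw [Real.norm_eq_abs, abs_div, abs_of_pos (hspos n), div_le_iff₀ (hspos n)]
    linarith
  have hint_h : Integrable h μ :=
    Integrable.of_bound hh.aestronglyMeasurable C (Filter.Eventually.of_forall hC)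
  have hint_b₀ : Integrable b₀ μ := integrable_of_continuous_of_ae_mem hY μ hμY hb₀
  have hint_c₀ : Integrable (conj Y b₀) ρ :=
    integrable_of_continuous_of_ae_mem hK ρ hρK (conj_continuous hY hYne hb₀)
  have hint_cn : ∀ n, Integrable (conj Y (bn n)) ρ := fun n =>
    integrable_of_continuous_of_ae_mem hK ρ hρK (conj_continuous hY hYne (hbnc n))
  -- minimality
  have hineq : ∀ n, 0 ≤ ∫ x, F n x ∂ρ + ∫ y, h y ∂μ := by
    intro n
    have h1 := hmin (bn n) (hbnc n)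
    unfold J at h1
    have h2 : ∫ y, bn n y ∂μ = ∫ y, b₀ y ∂μ + s n * ∫ y, h y ∂μ := by
      simp only [hbn]
      rw [integral_add hint_b₀ (hint_h.const_mul _), integral_const_mul]
    have h3 : ∫ x, F n x ∂ρ = (∫ x, conj Y (bn n) x ∂ρ - ∫ x, conj Y b₀ x ∂ρ) / s n := by
      simp only [hF]
      rw [integral_div, integral_sub (hint_cn n) hint_c₀]
    rw [h3]
    rw [h2] at h1
    have h4 : 0 ≤ (∫ x, conj Y (bn n) x ∂ρ - ∫ x, conj Y b₀ x ∂ρ) + s n * ∫ y, h y ∂μ := by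
      linarith
    have hsne : s n ≠ 0 := (hspos n).ne'
    have h5 : (∫ x, conj Y (bn n) x ∂ρ - ∫ x, conj Y b₀ x ∂ρ) / s n + ∫ y, h y ∂μ
        = ((∫ x, conj Y (bn n) x ∂ρ - ∫ x, conj Y b₀ x ∂ρ) + s n * ∫ y, h y ∂μ) / s n := by
      field_simp
    rw [h5]
    exact div_nonneg h4 (hspos n).le
  -- dominated convergence
  have hlim : Filter.Tendsto (fun n => ∫ x, F n x ∂ρ) Filter.atTop
      (nhds (∫ x, - h (T₀ x) ∂ρ)) := by
    apply tendsto_integral_of_dominated_convergence (fun _ => C)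
    · exact fun n => (hFc n).aestronglyMeasurable
    · exact integrable_const C
    · exact fun n => Filter.Eventually.of_forall (hFbound n)
    · filter_upwards [huniq] with x hx
      exact tendsto_conj_perturb hY hYne hb₀ hh hx.1 hx.2.1 hx.2.2
  have hlim2 : Filter.Tendsto (fun n => ∫ x, F n x ∂ρ + ∫ y, h y ∂μ) Filter.atTop
      (nhds (∫ x, - h (T₀ x) ∂ρ + ∫ y, h y ∂μ)) := hlim.add_const _
  have hfin : 0 ≤ ∫ x, - h (T₀ x) ∂ρ + ∫ y, h y ∂μ := ge_of_tendsto' hlim2 hineq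
  rw [integral_neg] at hfin
  linarith

/-- First variation of the dual functional at a minimiser: the map of unique maximisers pushes
`ρ` forward to `μ`. -/
theorem map_eq_of_minimizer {K Y : Set (E d)} (hK : IsCompact K) (hY : IsCompact Y)
    (hYne : Y.Nonempty)
    (ρ μ : Measure (E d)) [IsProbabilityMeasure ρ] [IsProbabilityMeasure μ]
    (hρK : ∀ᵐ x ∂ρ, x ∈ K) (hμY : ∀ᵐ y ∂μ, y ∈ Y)
    {b₀ : E d → ℝ} (hb₀ : Continuous b₀)
    (hmin : ∀ b : E d → ℝ, Continuous b → J ρ μ Y b₀ ≤ J ρ μ Y b)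
    {T₀ : E d → E d} (hT₀ : Measurable T₀)
    (huniq : ∀ᵐ x ∂ρ, T₀ x ∈ Y ∧ conj Y b₀ x + b₀ (T₀ x) = ⟪x, T₀ x⟫ ∧
        ∀ y ∈ Y, conj Y b₀ x + b₀ y = ⟪x, y⟫ → y = T₀ x) :
    ρ.map T₀ = μ := by
  have : IsFiniteMeasure (ρ.map T₀) := Measure.isFiniteMeasure_map ρ T₀
  apply ext_of_forall_integral_eq_of_IsFiniteMeasure
  intro f
  rw [integral_map hT₀.aemeasurable f.continuous.aestronglyMeasurable]
  have hbd : ∀ y, |f y| ≤ ‖f‖ := fun y => f.norm_coe_le_norm y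
  apply le_antisymm
  · exact integral_comp_le_of_minimizer hK hY hYne ρ μ hρK hμY hb₀ hmin huniq f.continuous hbd
  · have h1 := integral_comp_le_of_minimizer hK hY hYne ρ μ hρK hμY hb₀ hmin huniq
      (h := fun y => - f y) f.continuous.neg (C := ‖f‖) (fun y => by rw [abs_neg]; exact hbd y)
    rw [integral_neg, integral_neg] at h1
    linarith

end Vale.Agent.Lib.P074q
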