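import Vale.Agent.Lib.P074q.Brenier.Exist
import Vale.Agent.Lib.P074q.Brenier.Grad
import Vale.Agent.Lib.P074q.Brenier.Variation
import Vale.Agent.Lib.P074c.Defs

open MeasureTheory ENNReal
open scoped NNReal RealInnerProductSpace

namespace Vale.Agent.Lib.P074q

variable {d : ℕ}

/-- Expansion of the quadratic cost of a transport map. -/
lemma cost_expand {K Y : Set (E d)} {M R : ℝ≥0}
    (hKM : ∀ z ∈ K, ‖z‖ ≤ M) (hYR : ∀ y ∈ Y, ‖y‖ ≤ R)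
    (ρ μ : Measure (E d)) [IsProbabilityMeasure ρ] [IsProbabilityMeasure μ]
    (hρK : ∀ᵐ x ∂ρ, x ∈ K) (hμY : ∀ᵐ y ∂μ, y ∈ Y)
    {S : E d → E d} (hS : Measurable S) (hmap : ρ.map S = μ) :
    (∀ᵐ x ∂ρ, S x ∈ Y) ∧ Integrable (fun x => ⟪x, S x⟫) ρ ∧
      0 ≤ ∫ x, ‖x‖ ^ 2 ∂ρ - 2 * ∫ x, ⟪x, S x⟫ ∂ρ + ∫ y, ‖y‖ ^ 2 ∂μ ∧
      ∫⁻ x, ENNReal.ofReal (‖x - S x‖ ^ 2) ∂ρ =
        ENNReal.ofReal (∫ x, ‖x‖ ^ 2 ∂ρ - 2 * ∫ x, ⟪x, S x⟫ ∂ρ + ∫ y, ‖y‖ ^ 2 ∂μ) := by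
  have hSY : ∀ᵐ x ∂ρ, S x ∈ Y := by
    apply ae_of_ae_map hS.aemeasurable
    rw [hmap]
    exact hμY
  have hi1 : Integrable (fun x : E d => ‖x‖ ^ 2) ρ := by
    refine Integrable.of_bound (continuous_norm.pow 2).aestronglyMeasurable ((M : ℝ) ^ 2) ?_
    filter_upwards [hρK] with x hx
    rw [Real.norm_eq_abs, abs_of_nonneg (by positivity)]
    exact pow_le_pow_left₀ (norm_nonneg x) (hKM x hx) 2
  have hi2 : Integrable (fun x : E d => ⟪x, S x⟫) ρ := by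
    refine Integrable.of_bound (measurable_id.inner hS).aestronglyMeasurable ((M : ℝ) * R) ?_
    filter_upwards [hρK, hSY] with x hx hy
    rw [Real.norm_eq_abs]
    calc |⟪x, S x⟫| ≤ ‖x‖ * ‖S x‖ := abs_real_inner_le_norm x (S x)
      _ ≤ M * R := mul_le_mul (hKM x hx) (hYR _ hy) (norm_nonneg _) M.2
  have hi3 : Integrable (fun x : E d => ‖S x‖ ^ 2) ρ := by
    refine Integrable.of_bound (hS.norm.pow_const 2).aestronglyMeasurable ((R : ℝ) ^ 2) ?_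
    filter_upwards [hSY] with x hy
    rw [Real.norm_eq_abs, abs_of_nonneg (by positivity)]
    exact pow_le_pow_left₀ (norm_nonneg _) (hYR _ hy) 2
  have h3 : ∫ y, ‖y‖ ^ 2 ∂μ = ∫ x, ‖S x‖ ^ 2 ∂ρ := by
    rw [← hmap]
    exact integral_map hS.aemeasurable (continuous_norm.pow 2).aestronglyMeasurable
  have hexp : (fun x : E d => ‖x - S x‖ ^ 2) =
      fun x => ‖x‖ ^ 2 - 2 * ⟪x, S x⟫ + ‖S x‖ ^ 2 := by
    funext x
    exact norm_sub_sq_real x (S x)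
  have hi : Integrable (fun x : E d => ‖x - S x‖ ^ 2) ρ := by
    rw [hexp]
    exact (hi1.sub (hi2.const_mul 2)).add hi3
  have e1 : ∫ x, (‖x‖ ^ 2 - 2 * ⟪x, S x⟫ + ‖S x‖ ^ 2) ∂ρ =
      ∫ x, (‖x‖ ^ 2 - 2 * ⟪x, S x⟫) ∂ρ + ∫ x, ‖S x‖ ^ 2 ∂ρ :=
    integral_add (hi1.sub (hi2.const_mul 2)) hi3
  have e2 : ∫ x, (‖x‖ ^ 2 - 2 * ⟪x, S x⟫) ∂ρ = ∫ x, ‖x‖ ^ 2 ∂ρ - ∫ x, 2 * ⟪x, S x⟫ ∂ρ :=
    integral_sub hi1 (hi2.const_mul 2)
  have e3 : ∫ x, 2 * ⟪x, S x⟫ ∂ρ = 2 * ∫ x, ⟪x, S x⟫ ∂ρ := integral_const_mul _ _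
  have e : ∫ x, ‖x - S x‖ ^ 2 ∂ρ =
      ∫ x, ‖x‖ ^ 2 ∂ρ - 2 * ∫ x, ⟪x, S x⟫ ∂ρ + ∫ y, ‖y‖ ^ 2 ∂μ := by
    rw [hexp, h3, e1, e2, e3]
  refine ⟨hSY, hi2, ?_, ?_⟩
  · rw [← e]
    exact integral_nonneg fun x => by positivity
  · rw [← ofReal_integral_eq_lintegral_ofReal hi
      (Filter.Eventually.of_forall fun x => by positivity), e]

/-- Brenier-type theorem in the form we need: every Monge-optimal map from the uniform measure
on `K` to `μ` admits a tight pair of potentials. -/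
theorem potPair_of_isOTMap {K Y : Set (E d)} (hK : IsCompact K) (hv0 : volume K ≠ 0)
    (hY : IsCompact Y) (hYne : Y.Nonempty) {M R : ℝ≥0}
    (hKM : ∀ z ∈ K, ‖z‖ ≤ M) (hYR : ∀ y ∈ Y, ‖y‖ ≤ R)
    (μ : Measure (E d)) [IsProbabilityMeasure μ] (hμY : ∀ᵐ y ∂μ, y ∈ Y)
    (T : E d → E d) (hT : Vale.Agent.Lib.P074c.IsOTMap ((volume K)⁻¹ • volume.restrict K) μ T) :
    ∃ a b : E d → ℝ, PotPair Y M R a b ∧ Tight ((volume K)⁻¹ • volume.restrict K) T a b := by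
  classical
  set ρ : Measure (E d) := (volume K)⁻¹ • volume.restrict K with hρ
  have hvtop : volume K ≠ ⊤ := hK.measure_lt_top.ne
  have hKne : K.Nonempty := by
    rcases K.eq_empty_or_nonempty with h | h
    · exact absurd (by rw [h]; simp) hv0
    · exact h
  have hKmeas : MeasurableSet K := hK.measurableSet
  have : IsProbabilityMeasure ρ := ⟨by
    rw [hρ, Measure.smul_apply, Measure.restrict_apply MeasurableSet.univ, Set.univ_inter,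
      smul_eq_mul]
    exact ENNReal.inv_mul_cancel hv0 hvtop⟩
  have hρac : ρ ≪ volume :=
    (Measure.smul_absolutelyContinuous).trans Measure.restrict_le_self.absolutelyContinuous
  have hρK : ∀ᵐ x ∂ρ, x ∈ K := Measure.ae_smul_measure (ae_restrict_mem hKmeas) _
  obtain ⟨b₀, hb₀, hmin⟩ := exists_minimizer hK hKne hY hYne hKM hYR ρ μ hρK hμY
  have hbb : ∃ c, ∀ z ∈ Y, c ≤ b₀ z := exists_lower_bound hY hb₀.continuous
  obtain ⟨T₀, hT₀, huniq0⟩ := exists_unique_maximizer hY hYne hb₀.continuous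
  have huniq : ∀ᵐ x ∂ρ, T₀ x ∈ Y ∧ conj Y b₀ x + b₀ (T₀ x) = ⟪x, T₀ x⟫ ∧
      ∀ y ∈ Y, conj Y b₀ x + b₀ y = ⟪x, y⟫ → y = T₀ x := hρac.ae_le huniq0
  have hmap₀ : ρ.map T₀ = μ :=
    map_eq_of_minimizer hK hY hYne ρ μ hρK hμY hb₀.continuous hmin hT₀ huniq
  obtain ⟨hTm, hmapT, hopt⟩ := hT
  have hfy : ∀ x, ∀ y ∈ Y, ⟪x, y⟫ ≤ conj Y b₀ x + b₀ y := by
    intro x y hy
    have := le_conj hYR hbb x hy
    linarith
  refine ⟨conj Y b₀, b₀, ⟨hfy, conj_lipschitz hYne hYR hbb, hb₀, conj_mid hYne hYR hbb⟩, ?_⟩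
  obtain ⟨hTY, hiT, -, hcT⟩ := cost_expand hKM hYR ρ μ hρK hμY hTm hmapT
  obtain ⟨-, hiT₀, hpos, hcT₀⟩ := cost_expand hKM hYR ρ μ hρK hμY hT₀ hmap₀
  have hle := hopt T₀ hT₀ hmap₀
  rw [hcT, hcT₀] at hle
  -- the right-hand side is nonnegative, being a cost
  have hinner : ∫ x, ⟪x, T₀ x⟫ ∂ρ ≤ ∫ x, ⟪x, T x⟫ ∂ρ := by
    have := (ENNReal.ofReal_le_ofReal_iff hpos).1 hle
    linarith
  have hia : Integrable (conj Y b₀) ρ :=
    integrable_of_continuous_of_ae_mem hK ρ hρK (conj_continuous hY hYne hb₀.continuous)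
  have hib : Integrable b₀ μ := integrable_of_continuous_of_ae_mem hY μ hμY hb₀.continuous
  have hibT : Integrable (fun x => b₀ (T x)) ρ := by
    have : Integrable b₀ (ρ.map T) := by rw [hmapT]; exact hib
    exact (integrable_map_measure hb₀.continuous.aestronglyMeasurable hTm.aemeasurable).1 this
  have hibT₀ : Integrable (fun x => b₀ (T₀ x)) ρ := by
    have : Integrable b₀ (ρ.map T₀) := by rw [hmap₀]; exact hib
    exact (integrable_map_measure hb₀.continuous.aestronglyMeasurable hT₀.aemeasurable).1 this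
  have hbT : ∫ x, b₀ (T x) ∂ρ = ∫ y, b₀ y ∂μ := by
    rw [← hmapT]
    exact (integral_map hTm.aemeasurable hb₀.continuous.aestronglyMeasurable).symm
  have hbT₀ : ∫ x, b₀ (T₀ x) ∂ρ = ∫ y, b₀ y ∂μ := by
    conv_rhs => rw [← hmap₀]
    exact (integral_map hT₀.aemeasurable hb₀.continuous.aestronglyMeasurable).symm
  have h0 : ∫ x, ⟪x, T₀ x⟫ ∂ρ = ∫ x, conj Y b₀ x ∂ρ + ∫ y, b₀ y ∂μ := by
    rw [← hbT₀, ← integral_add hia hibT₀]
    apply integral_congr_ae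
    filter_upwards [huniq] with x hx
    exact hx.2.1.symm
  have hg_int : Integrable (fun x => conj Y b₀ x + b₀ (T x) - ⟪x, T x⟫) ρ :=
    (hia.add hibT).sub hiT
  have hg_nonneg : 0 ≤ᵐ[ρ] fun x => conj Y b₀ x + b₀ (T x) - ⟪x, T x⟫ := by
    filter_upwards [hTY] with x hx
    have := hfy x (T x) hx
    simp only [Pi.zero_apply]
    linarith
  have hg_zero : ∫ x, (conj Y b₀ x + b₀ (T x) - ⟪x, T x⟫) ∂ρ = 0 := by
    apply le_antisymm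
    · have e1 : ∫ x, (conj Y b₀ x + b₀ (T x) - ⟪x, T x⟫) ∂ρ =
          ∫ x, (conj Y b₀ x + b₀ (T x)) ∂ρ - ∫ x, ⟪x, T x⟫ ∂ρ :=
        integral_sub (hia.add hibT) hiT
      have e2 : ∫ x, (conj Y b₀ x + b₀ (T x)) ∂ρ = ∫ x, conj Y b₀ x ∂ρ + ∫ x, b₀ (T x) ∂ρ :=
        integral_add hia hibT
      rw [e1, e2, hbT]
      linarith
    · exact integral_nonneg_of_ae hg_nonneg
  have := (integral_eq_zero_iff_of_nonneg_ae hg_nonneg hg_int).1 hg_zero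
  unfold Tight
  filter_upwards [this] with x hx
  simp only [Pi.zero_apply] at hx
  linarith

end Vale.Agent.Lib.P074q
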