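import Vale.Agent.Lib.P074q.Conj

open MeasureTheory ENNReal
open scoped NNReal RealInnerProductSpace

namespace Vale.Agent.Lib.P074q

variable {d : ℕ}

/-- Pointwise derivative of the conjugate under perturbation of `b` at a point with a unique
maximiser `t`: `(conj Y (b + s h) x - conj Y b x) / s → - h t` as `s → 0+`. -/
theorem tendsto_conj_perturb {Y : Set (E d)} (hY : IsCompact Y) (hYne : Y.Nonempty)
    {b h : E d → ℝ} (hb : Continuous b) (hh : Continuous h) {x t : E d} (ht : t ∈ Y)
    (heq : conj Y b x + b t = ⟪x, t⟫)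
    (huniq : ∀ y ∈ Y, conj Y b x + b y = ⟪x, y⟫ → y = t) :
    Filter.Tendsto (fun n : ℕ =>
        (conj Y (fun y => b y + (1 / ((n : ℝ) + 1)) * h y) x - conj Y b x) / (1 / ((n : ℝ) + 1)))
      Filter.atTop (nhds (- h t)) := by
  classical
  obtain ⟨R, hR⟩ : ∃ R : ℝ≥0, ∀ z ∈ Y, ‖z‖ ≤ R := by
    obtain ⟨C, hC⟩ := hY.isBounded.exists_norm_le
    exact ⟨C.toNNReal, fun z hz => (hC z hz).trans (Real.le_coe_toNNReal C)⟩
  have hlb : ∀ f : E d → ℝ, Continuous f → ∃ c, ∀ z ∈ Y, c ≤ f z := by
    intro f hf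
    obtain ⟨C, hC⟩ := hY.exists_bound_of_continuousOn hf.continuousOn
    exact ⟨-C, fun z hz => (abs_le.mp (hC z hz)).1⟩
  set s : ℕ → ℝ := fun n => 1 / ((n : ℝ) + 1) with hsdef
  have hs : ∀ n, 0 < s n := fun n => by simp only [hsdef]; positivity
  have hs0 : Filter.Tendsto s Filter.atTop (nhds 0) := tendsto_one_div_add_atTop_nhds_zero_nat
  have hcont : ∀ n, Continuous (fun y => b y + s n * h y) := fun n => by fun_prop
  choose yseq hyY hyeq using fun n => exists_conj_eq hY hYne (hcont n).continuousOn x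
  set a : ℝ := conj Y b x with ha
  let F : E d → ℝ := fun y => ⟪x, y⟫ - b y
  have hFc : Continuous F := by fun_prop
  have hFle : ∀ y ∈ Y, F y ≤ a := fun y hy => le_conj hR (hlb b hb) x hy
  have hlow : ∀ n, a - s n * h t ≤ conj Y (fun y => b y + s n * h y) x := by
    intro n
    have := le_conj hR (hlb _ (hcont n)) x ht
    linarith
  obtain ⟨Ch, hCh⟩ := hY.exists_bound_of_continuousOn hh.continuousOn
  have hFy_low : ∀ n, a - s n * (2 * Ch) ≤ F (yseq n) := by
    intro n
    have h1 := hlow n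
    rw [hyeq n] at h1
    have h2 := abs_le.mp (hCh t ht)
    have h3 := abs_le.mp (hCh _ (hyY n))
    have h4 : s n * h t ≤ s n * Ch := mul_le_mul_of_nonneg_left h2.2 (hs n).le
    have h5 : s n * (-Ch) ≤ s n * h (yseq n) := mul_le_mul_of_nonneg_left h3.1 (hs n).le
    show a - s n * (2 * Ch) ≤ ⟪x, yseq n⟫ - b (yseq n)
    nlinarith
  have hFy : Filter.Tendsto (fun n => F (yseq n)) Filter.atTop (nhds a) := by
    have hl : Filter.Tendsto (fun n => a - s n * (2 * Ch)) Filter.atTop (nhds a) := by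
      have := (hs0.mul_const (2 * Ch)).const_sub a
      simpa using this
    exact tendsto_of_tendsto_of_tendsto_of_le_of_le hl tendsto_const_nhds hFy_low
      (fun n => hFle _ (hyY n))
  have hyt : Filter.Tendsto yseq Filter.atTop (nhds t) := by
    refine hY.tendsto_nhds_of_unique_mapClusterPt (Filter.Eventually.of_forall hyY) ?_
    intro y' hy' hcl
    have h1 : MapClusterPt (F y') Filter.atTop (F ∘ yseq) := hcl.continuousAt_comp hFc.continuousAt
    have h2 : ClusterPt (F y') (nhds a) := ClusterPt.mono h1 hFy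
    have h3 : F y' = a := eq_of_nhds_neBot h2
    refine huniq y' hy' ?_
    have : ⟪x, y'⟫ - b y' = a := h3
    linarith
  have hht : Filter.Tendsto (fun n => - h (yseq n)) Filter.atTop (nhds (- h t)) :=
    ((hh.tendsto t).comp hyt).neg
  refine tendsto_of_tendsto_of_tendsto_of_le_of_le tendsto_const_nhds hht ?_ ?_
  · intro n
    show - h t ≤ (conj Y (fun y => b y + s n * h y) x - a) / s n
    rw [le_div_iff₀ (hs n)]
    have := hlow n
    linarith
  · intro n
    show (conj Y (fun y => b y + s n * h y) x - a) / s n ≤ - h (yseq n)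
    rw [div_le_iff₀ (hs n), hyeq n]
    have := hFle _ (hyY n)
    have h6 : ⟪x, yseq n⟫ - b (yseq n) ≤ a := this
    linarith

end Vale.Agent.Lib.P074q
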